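import Vale.Agent.P328.Ratios
import Vale.Agent.P328.Time

/-!
# P328 : polynomial time approximate counting and sampling of contingency tables, all margins
-/

namespace Vale.Agent.Results.P328.AllMargins

open _root_.P328 Finset

/-- the contingency tables with margins `r` and `c` -/
def Omega {m n : ℕ} (r : Fin m → ℕ) (c : Fin n → ℕ) : Set (Fin m × Fin n → ℤ) :=
  {X | (∀ p, 0 ≤ X p) ∧ (∀ i, ∑ j, X (i, j) = r i) ∧ ∀ j, ∑ i, X (i, j) = c j}

/-- the margins, as integers -/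
def margins {m n : ℕ} (r : Fin m → ℕ) (c : Fin n → ℕ) : (Fin m → ℤ) × (Fin n → ℤ) :=
  (fun i => (r i : ℤ), fun j => (c j : ℤ))

/-- the length of the input (the margins are written in binary) -/
def size {m n : ℕ} (r : Fin m → ℕ) (c : Fin n → ℕ) : ℕ :=
  m + n + ∑ i, Nat.log 2 (r i + 2) + ∑ j, Nat.log 2 (c j + 2)

open Classical in
/-- the uniform law on the contingency tables -/
noncomputable def uniform {m n : ℕ} (r : Fin m → ℕ) (c : Fin n → ℕ)
    (X : Fin m × Fin n → ℤ) : ℝ :=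
  if X ∈ Omega r c then 1 / (Omega r c).ncard else 0

section Lemmas

variable {m n : ℕ} {r : Fin m → ℕ} {c : Fin n → ℕ}

theorem ok_margins (h : ∑ i, r i = ∑ j, c j) : Ok (margins r c) := by
  refine ⟨fun i => Int.natCast_nonneg _, fun j => Int.natCast_nonneg _, ?_⟩
  change ∑ i, (r i : ℤ) = ∑ j, (c j : ℤ)
  exact_mod_cast h

theorem mem_Omega {X : Fin m × Fin n → ℤ} : X ∈ Om (margins r c) ↔ X ∈ Omega r c := by
  rw [mem_Om]
  constructor
  · rintro ⟨h0, h⟩
    refine ⟨fun p => h0 p, fun i => ?_, fun j => ?_⟩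
    · exact congrFun (congrArg Prod.fst h) i
    · exact congrFun (congrArg Prod.snd h) j
  · rintro ⟨h0, h1, h2⟩
    exact ⟨fun p => h0 p, Prod.ext (funext h1) (funext h2)⟩

theorem Omega_eq : Omega r c = ↑(Om (margins r c)) := by
  ext X
  rw [Finset.mem_coe]
  exact mem_Omega.symm

theorem ncard_Omega : (Omega r c).ncard = (Om (margins r c)).card := by
  rw [Omega_eq, Set.ncard_coe_finset]

theorem uniform_eq (h : ∑ i, r i = ∑ j, c j) (X : Fin m × Fin n → ℤ) :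
    (unifOm (margins r c) X).toReal = uniform r c X := by
  have hne := Om_nonempty (ok_margins h)
  unfold unifOm uniform
  rw [dif_pos hne, PMF.uniformOfFinset_apply, ncard_Omega]
  by_cases hX : X ∈ Omega r c
  · rw [if_pos hX, if_pos (mem_Omega.mpr hX), ENNReal.toReal_inv, ENNReal.toReal_natCast, one_div]
  · rw [if_neg hX, if_neg (fun h => hX (mem_Omega.mp h)), ENNReal.toReal_zero]

theorem sum_lt_prod {k : ℕ} (f : Fin k → ℕ) (s : Finset (Fin k)) :
    ∑ i ∈ s, f i + 1 ≤ ∏ i ∈ s, (f i + 2) := by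
  classical
  induction s using Finset.induction_on with
  | empty => simp
  | insert a s ha ih =>
    rw [Finset.sum_insert ha, Finset.prod_insert ha]
    have h1 : 1 ≤ ∏ i ∈ s, (f i + 2) := by omega
    nlinarith [Nat.mul_le_mul_left (f a + 2) ih, Nat.zero_le (f a * ∑ i ∈ s, f i)]

theorem len_le_size [NeZero n] : len (margins r c) ≤ size r c := by
  have hn : 1 ≤ n := Nat.one_le_iff_ne_zero.mpr (NeZero.ne n)
  have h1 : (tot (margins r c)).toNat = ∑ i, r i := by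
    unfold tot margins
    have : (∑ i, (r i : ℤ)) = ((∑ i, r i : ℕ) : ℤ) := by push_cast; rfl
    simp only [this, Int.toNat_natCast]
  have h2 : ∏ i, (r i + 2) ≤ 2 ^ (m + ∑ i, Nat.log 2 (r i + 2)) := by
    calc ∏ i, (r i + 2) ≤ ∏ i : Fin m, 2 ^ (1 + Nat.log 2 (r i + 2)) := by
          refine Finset.prod_le_prod' fun i _ => ?_
          have := Nat.lt_pow_succ_log_self (b := 2) (by norm_num) (r i + 2)
          rw [add_comm 1]
          exact this.le
      _ = 2 ^ (∑ i : Fin m, (1 + Nat.log 2 (r i + 2))) := Finset.prod_pow_eq_pow_sum _ _ _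
      _ = 2 ^ (m + ∑ i, Nat.log 2 (r i + 2)) := by
          rw [Finset.sum_add_distrib]
          simp
  have h3 := sum_lt_prod r univ
  have h4 : Nat.log 2 (∑ i, r i) ≤ m + ∑ i, Nat.log 2 (r i + 2) := by
    refine Nat.le_of_lt_succ ?_
    by_cases h0 : ∑ i, r i = 0
    · rw [h0]
      simp
    · refine Nat.log_lt_of_lt_pow h0 ?_
      refine lt_of_lt_of_le (by omega : ∑ i, r i < ∏ i, (r i + 2)) (h2.trans ?_)
      exact Nat.pow_le_pow_right (by norm_num) (Nat.le_succ _)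
  unfold len size
  rw [h1]
  omega

end Lemmas

/-- There is a fully polynomial randomized approximation scheme for the number of contingency
tables, and a polynomial time sampler, with no restriction on the dimensions or margins. -/
theorem result : ∃ C : ℕ, ∀ (m n : ℕ) [NeZero m] [NeZero n] (r : Fin m → ℕ) (c : Fin n → ℕ),
    ∑ i, r i = ∑ j, c j →
    (∀ ε δ : ℝ, 0 < ε → ε < 1 → 0 < δ → δ < 1 →
      1 - δ ≤ ((law (counter (margins r c) ⌈1 / ε⌉₊ ⌈Real.log (1 / δ)⌉₊)).toOuterMeasure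
        {z | (1 - ε) * (Omega r c).ncard ≤ (z : ℝ) ∧
          (z : ℝ) ≤ (1 + ε) * (Omega r c).ncard}).toReal ∧
      ∀ x ∈ (counter (margins r c) ⌈1 / ε⌉₊ ⌈Real.log (1 / δ)⌉₊).support,
        (x.2 : ℝ) ≤ (C * size r c * (1 / ε) * (1 + Real.log (1 / δ))) ^ C) ∧
    (∀ ε : ℝ, 0 < ε → ε < 1 →
      (∀ X ∈ (law (sampler (margins r c) ⌈1 / ε⌉₊)).support, X ∈ Omega r c) ∧
      (∑' X, |(law (sampler (margins r c) ⌈1 / ε⌉₊) X).toReal - uniform r c X|) / 2 ≤ ε ∧
      ∀ x ∈ (sampler (margins r c) ⌈1 / ε⌉₊).support,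
        (x.2 : ℝ) ≤ (C * size r c * (1 / ε)) ^ C) := by
  obtain ⟨C₁, hC₁⟩ := time_sampler
  obtain ⟨C₂, hC₂⟩ := time_counter
  refine ⟨2 * (C₁ + C₂) + 8, fun m n _ _ r c h => ?_⟩
  have hok := ok_margins h
  set b := margins r c with hb
  have hm : 1 ≤ m := Nat.one_le_iff_ne_zero.mpr (NeZero.ne m)
  have hs1 : 1 ≤ size r c := by
    unfold size
    omega
  have hsR : (1 : ℝ) ≤ size r c := by exact_mod_cast hs1
  have hmn : m + n ≤ size r c := by
    unfold size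
    omega
  have hlen : len b ≤ size r c := len_le_size
  have hceil : ∀ ε : ℝ, 0 < ε → ε < 1 → 1 ≤ ⌈1 / ε⌉₊ ∧ 1 / ((⌈1 / ε⌉₊ : ℕ) : ℝ) ≤ ε ∧
      ((⌈1 / ε⌉₊ : ℕ) : ℝ) ≤ 2 * (1 / ε) := by
    intro ε h0 h1
    have h2 : 1 < 1 / ε := by
      rw [lt_div_iff₀ h0]
      linarith
    have h3 : 1 ≤ ⌈1 / ε⌉₊ := Nat.one_le_ceil_iff.mpr (by linarith)
    refine ⟨h3, ?_, ?_⟩
    · have h4 : (0 : ℝ) < ((⌈1 / ε⌉₊ : ℕ) : ℝ) := by exact_mod_cast h3
      rw [div_le_iff₀ h4]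
      have := Nat.le_ceil (1 / ε)
      rw [div_le_iff₀ h0] at this
      linarith
    · have := Nat.ceil_lt_add_one (a := 1 / ε) (by linarith)
      linarith
  have hprm : ∀ ε : ℝ, 0 < ε → ε < 1 → (prm b ⌈1 / ε⌉₊ : ℝ) ≤
      2 * (size r c : ℝ) ^ 2 * (1 / ε) := by
    intro ε h0 h1
    have h2 := (hceil ε h0 h1).2.2
    have h3 : prm b ⌈1 / ε⌉₊ ≤ size r c * size r c * ⌈1 / ε⌉₊ := by
      unfold prm
      exact Nat.mul_le_mul_right _ (Nat.mul_le_mul hmn hlen)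
    have h4 : (prm b ⌈1 / ε⌉₊ : ℝ) ≤ size r c * size r c * ((⌈1 / ε⌉₊ : ℕ) : ℝ) := by
      exact_mod_cast h3
    refine h4.trans ?_
    have h5 : (0 : ℝ) ≤ (size r c : ℝ) * size r c := by positivity
    nlinarith [mul_le_mul_of_nonneg_left h2 h5]
  have hCR : (8 : ℝ) ≤ ((2 * (C₁ + C₂) + 8 : ℕ) : ℝ) := by
    have : 8 ≤ 2 * (C₁ + C₂) + 8 := by omega
    exact_mod_cast this
  refine ⟨fun ε δ h0 h1 hδ0 hδ1 => ⟨?_, ?_⟩, fun ε h0 h1 => ⟨?_, ?_, ?_⟩⟩
  · obtain ⟨he1, he2, _⟩ := hceil ε h0 h1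
    have hd : Real.exp (-((⌈Real.log (1 / δ)⌉₊ : ℕ) : ℝ)) ≤ δ := by
      have h2 := Nat.le_ceil (Real.log (1 / δ))
      calc Real.exp (-((⌈Real.log (1 / δ)⌉₊ : ℕ) : ℝ)) ≤ Real.exp (-Real.log (1 / δ)) :=
            Real.exp_le_exp.mpr (by linarith)
        _ = δ := by
            rw [one_div, Real.log_inv, neg_neg, Real.exp_log hδ0]
    have h2 := counter_ok hok he1 ⌈Real.log (1 / δ)⌉₊
    refine le_trans (by linarith) (h2.trans ?_)
    refine ENNReal.toReal_mono ?_ (PMF.toOuterMeasure _ |>.mono ?_)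
    · refine ne_top_of_le_ne_top ENNReal.one_ne_top ?_
      rw [PMF.toOuterMeasure_apply, ← PMF.tsum_coe (law _)]
      exact ENNReal.tsum_le_tsum fun a => Set.indicator_le_self _ _ _
    · rintro z ⟨h3, h4⟩
      rw [ncard_Omega]
      have hcard : (0 : ℝ) ≤ (Om (margins r c)).card := Nat.cast_nonneg _
      constructor
      · refine le_trans (mul_le_mul_of_nonneg_right ?_ hcard) h3
        linarith
      · refine h4.trans (mul_le_mul_of_nonneg_right ?_ hcard)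
        linarith
  · intro x hx
    obtain ⟨he1, _, _⟩ := hceil ε h0 h1
    have h2 := hC₂ m n b hok ⌈1 / ε⌉₊ ⌈Real.log (1 / δ)⌉₊ he1 x hx
    have hlog : 0 ≤ Real.log (1 / δ) := by
      refine Real.log_nonneg ?_
      rw [le_div_iff₀ hδ0]
      linarith
    have hd : ((⌈Real.log (1 / δ)⌉₊ : ℕ) : ℝ) + 1 ≤ 2 * (1 + Real.log (1 / δ)) := by
      have := Nat.ceil_lt_add_one hlog
      linarith
    have hε : 1 ≤ 1 / ε := by
      rw [le_div_iff₀ h0]
      linarith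
    set z : ℝ := 8 * size r c * (1 / ε) * (1 + Real.log (1 / δ)) with hz
    have hz1 : 1 ≤ z := by
      rw [hz]
      have a1 : (1 : ℝ) ≤ 8 * size r c := by linarith
      have a2 : (1 : ℝ) ≤ 8 * size r c * (1 / ε) := one_le_mul_of_one_le_of_one_le a1 hε
      exact one_le_mul_of_one_le_of_one_le a2 (by linarith)
    have h3 : (x.2 : ℝ) ≤ (2 * (prm b ⌈1 / ε⌉₊ : ℝ) *
        (((⌈Real.log (1 / δ)⌉₊ : ℕ) : ℝ) + 1)) ^ C₂ := by exact_mod_cast h2
    have h4 : 2 * (prm b ⌈1 / ε⌉₊ : ℝ) * (((⌈Real.log (1 / δ)⌉₊ : ℕ) : ℝ) + 1) ≤ z ^ 2 := by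
      have a1 := hprm ε h0 h1
      have a2 : 2 * (prm b ⌈1 / ε⌉₊ : ℝ) * (((⌈Real.log (1 / δ)⌉₊ : ℕ) : ℝ) + 1) ≤
          2 * (2 * (size r c : ℝ) ^ 2 * (1 / ε)) * (2 * (1 + Real.log (1 / δ))) := by
        refine mul_le_mul (by linarith) hd (by positivity) (by positivity)
      refine a2.trans ?_
      have a3 : z ^ 2 = 2 * (2 * (size r c : ℝ) ^ 2 * (1 / ε)) * (2 * (1 + Real.log (1 / δ))) *
          (8 * (1 / ε) * (1 + Real.log (1 / δ))) := by
        rw [hz]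
        ring
      rw [a3]
      refine le_mul_of_one_le_right (by positivity) ?_
      have a4 : (1 : ℝ) ≤ 8 * (1 / ε) := by linarith
      exact one_le_mul_of_one_le_of_one_le a4 (by linarith)
    calc (x.2 : ℝ) ≤ (z ^ 2) ^ C₂ := h3.trans (pow_le_pow_left₀ (by positivity) h4 _)
      _ = z ^ (2 * C₂) := by rw [← pow_mul]
      _ ≤ z ^ (2 * (C₁ + C₂) + 8) := pow_le_pow_right₀ hz1 (by omega)
      _ ≤ _ := by
        refine pow_le_pow_left₀ (by linarith) ?_ _
        rw [hz]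
        gcongr
  · intro X hX
    exact mem_Omega.mp (sampler_support hok _ X hX)
  · obtain ⟨he1, he2, _⟩ := hceil ε h0 h1
    have h2 := sampler_tv hok he1
    have h3 : tv (law (sampler b ⌈1 / ε⌉₊)) (unifOm b) =
        (∑' X, |(law (sampler b ⌈1 / ε⌉₊) X).toReal - uniform r c X|) / 2 := by
      unfold tv
      congr 1
      refine tsum_congr fun X => ?_
      rw [uniform_eq h]
    rw [← h3]
    exact h2.trans he2
  · intro x hx
    obtain ⟨he1, _, _⟩ := hceil ε h0 h1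
    have h2 := hC₁ m n b hok ⌈1 / ε⌉₊ he1 x hx
    have hε : 1 ≤ 1 / ε := by
      rw [le_div_iff₀ h0]
      linarith
    set z : ℝ := 8 * size r c * (1 / ε) with hz
    have hz1 : 1 ≤ z := by
      rw [hz]
      have a1 : (1 : ℝ) ≤ 8 * size r c := by linarith
      exact one_le_mul_of_one_le_of_one_le a1 hε
    have h3 : (x.2 : ℝ) ≤ (2 * (prm b ⌈1 / ε⌉₊ : ℝ)) ^ C₁ := by exact_mod_cast h2
    have h4 : 2 * (prm b ⌈1 / ε⌉₊ : ℝ) ≤ z ^ 2 := by
      have a1 := hprm ε h0 h1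
      refine (mul_le_mul_of_nonneg_left a1 (by norm_num)).trans ?_
      have a3 : z ^ 2 = 2 * (2 * (size r c : ℝ) ^ 2 * (1 / ε)) * (16 * (1 / ε)) := by
        rw [hz]
        ring
      rw [a3]
      refine le_mul_of_one_le_right (by positivity) ?_
      linarith
    calc (x.2 : ℝ) ≤ (z ^ 2) ^ C₁ := h3.trans (pow_le_pow_left₀ (by positivity) h4 _)
      _ = z ^ (2 * C₁) := by rw [← pow_mul]
      _ ≤ z ^ (2 * (C₁ + C₂) + 8) := pow_le_pow_right₀ hz1 (by omega)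
      _ ≤ _ := by
        refine pow_le_pow_left₀ (by linarith) ?_ _
        rw [hz]
        gcongr

end Vale.Agent.Results.P328.AllMargins
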