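import Vale.Agent.P328.Deep.Final2

/-!
# P328 : polynomial time approximate counting and sampling of contingency tables, all margins
-/

namespace Vale.Agent.Results.P328.Machine

open _root_.P328.Deep

/-- There are programs `P`, `Q` such that `P` is a fully polynomial randomized approximation scheme
for the number of contingency tables, and `Q` is a polynomial time sampler, with no restriction on
the dimensions or on the margins (which are written in binary). -/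
theorem result : ∃ (P Q : Cmd) (C : ℕ), ∀ m n : ℕ, 1 ≤ m → 1 ≤ n →
    ∀ (r : Fin m → ℕ) (c : Fin n → ℕ), ∑ i, r i = ∑ j, c j →
    (∀ ε δ : ℝ, 0 < ε → ε < 1 → 0 < δ → δ < 1 →
      1 - δ ≤ prob P (input r c ⌈1 / ε⌉₊ ⌈Real.log (1 / δ)⌉₊) (fun s =>
        (1 - ε) * (Omega r c).ncard ≤ (s 6 0 0 : ℝ) / s 7 0 0 ∧
        (s 6 0 0 : ℝ) / s 7 0 0 ≤ (1 + ε) * (Omega r c).ncard) ∧
      StepsLe P (input r c ⌈1 / ε⌉₊ ⌈Real.log (1 / δ)⌉₊)
        ((C * size r c * (1 / ε) * (1 + Real.log (1 / δ))) ^ C)) ∧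
    (∀ ε : ℝ, 0 < ε → ε < 1 →
      (∀ y ∈ (Q.run (input r c ⌈1 / ε⌉₊ 0)).support,
        (fun p : Fin m × Fin n => y.1 6 (p.1 : ℕ) (p.2 : ℕ)) ∈ Omega r c) ∧
      (∑' X : Fin m × Fin n → ℤ, |prob Q (input r c ⌈1 / ε⌉₊ 0) (fun s =>
        ∀ (i : Fin m) (j : Fin n), s 6 (i : ℕ) (j : ℕ) = X (i, j)) - uniform r c X|) / 2 ≤ ε ∧
      StepsLe Q (input r c ⌈1 / ε⌉₊ 0) ((C * size r c * (1 / ε)) ^ C)) :=
  final

end Vale.Agent.Results.P328.Machine
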